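import Mathlib

/-!
Counting in the product space that carries the junta sets `W k c`.
-/

namespace Vale.Agent.P126

open Finset

section General

variable {ι : Type} [Fintype ι] [DecidableEq ι] {β : ι → Type} [∀ i, Fintype (β i)]
  [∀ i, DecidableEq (β i)]

lemma card_filter_box (S : ∀ i, Finset (β i)) (κ : ι) (hS : S κ = univ) (V : Finset (β κ)) :
    ((Fintype.piFinset S).filter fun z => z κ ∈ V).card * Fintype.card (β κ)
      = (Fintype.piFinset S).card * V.card := by
  have h1 : ((Fintype.piFinset S).filter fun z => z κ ∈ V).card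
      = V.card * ∏ j ∈ univ.erase κ, (S j).card := by
    rw [← Fintype.piFinset_update_eq_filter_piFinset_mem S κ (by rw [hS]; exact subset_univ _),
      Fintype.card_piFinset]
    calc ∏ j, (Function.update S κ V j).card
        = ∏ j, Function.update (fun j => (S j).card) κ V.card j :=
          Fintype.prod_congr _ _ fun j => by obtain rfl | hji := eq_or_ne j κ <;> simp [*]
      _ = _ := by simp [prod_update_of_mem, erase_eq]
  have h2 : (Fintype.piFinset S).card
      = Fintype.card (β κ) * ∏ j ∈ univ.erase κ, (S j).card := by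
    rw [Fintype.card_piFinset, ← Finset.mul_prod_erase univ _ (mem_univ κ), hS, card_univ]
  rw [h1, h2]
  ring

end General

lemma card_side (L p : ℕ) (B : Finset (Fin L)) (S : Finset (Fin p)) :
    (univ.filter fun v : Fin L → Fin p => ∀ t ∈ B, v t ∈ S).card * p ^ B.card
      = S.card ^ B.card * p ^ L := by
  have h : (univ.filter fun v : Fin L → Fin p => ∀ t ∈ B, v t ∈ S)
      = Fintype.piFinset fun t => if t ∈ B then S else univ := by
    ext v
    simp only [mem_filter, mem_univ, true_and, Fintype.mem_piFinset]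
    constructor
    · intro h t
      split_ifs with ht
      · exact h t ht
      · exact mem_univ _
    · intro h t ht
      have := h t
      rwa [if_pos ht] at this
  rw [h, Fintype.card_piFinset]
  have h2 : ∀ t : Fin L, (if t ∈ B then S else univ).card = if t ∈ B then S.card else p := by
    intro t
    split_ifs <;> simp
  simp only [h2]
  rw [Finset.prod_ite]
  simp only [prod_const, filter_mem_eq_inter, univ_inter]
  have h3 : (univ.filter fun t : Fin L => t ∉ B).card + B.card = L := by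
    have : (univ.filter fun t : Fin L => t ∉ B) = Bᶜ := by
      ext t
      simp
    rw [this, card_compl_add_card]
    simp
  rw [mul_assoc, ← pow_add, h3]

section Levels

variable {a : ℕ} (L p : Fin a → ℕ)

/-- The ground set. -/
abbrev Om : Type := ∀ j : Fin a, Fin (L j) → Fin (p j)

/-- One coordinate per level. -/
abbrev Tup : Type := ∀ j : Fin a, Fin (L j)

/-- The level `k` subcube selected by the tuple `c`. -/
def W (k : ℕ) (c : Tup L) : Finset (Om L p) :=
  univ.filter fun z => ∀ j : Fin a, j.val < k → (z j (c j)).val = 0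

variable {L p}

lemma mem_W {k : ℕ} {c : Tup L} {z : Om L p} :
    z ∈ W L p k c ↔ ∀ j : Fin a, j.val < k → (z j (c j)).val = 0 := by
  simp [W]

lemma W_zero (c : Tup L) : W L p 0 c = univ := by
  ext z
  simp [mem_W]

lemma W_congr {k : ℕ} {c c' : Tup L} (h : ∀ j : Fin a, j.val < k → c j = c' j) :
    W L p k c = W L p k c' := by
  ext z
  simp only [mem_W]
  constructor
  · intro hz j hj
    rw [← h j hj]
    exact hz j hj
  · intro hz j hj
    rw [h j hj]
    exact hz j hj

lemma W_anti {k k' : ℕ} (h : k ≤ k') (c : Tup L) : W L p k' c ⊆ W L p k c := by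
  intro z hz
  rw [mem_W] at hz ⊢
  intro j hj
  exact hz j (lt_of_lt_of_le hj h)

lemma W_update (κ : Fin a) (c : Tup L) (t : Fin (L κ)) :
    W L p κ.val (Function.update c κ t) = W L p κ.val c := by
  apply W_congr
  intro j hj
  have : j ≠ κ := by
    intro h
    rw [h] at hj
    exact lt_irrefl _ hj
  simp [this]

lemma mem_W_succ {κ : Fin a} {c : Tup L} {z : Om L p} :
    z ∈ W L p (κ.val + 1) c ↔ z ∈ W L p κ.val c ∧ (z κ (c κ)).val = 0 := by
  simp only [mem_W]
  constructor
  · intro h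
    exact ⟨fun j hj => h j (by omega), h κ (by omega)⟩
  · rintro ⟨h1, h2⟩ j hj
    rcases Nat.lt_succ_iff_lt_or_eq.mp hj with h | h
    · exact h1 j h
    · have : j = κ := Fin.ext h
      subst this
      exact h2

lemma W_nonempty (hp : ∀ j, 0 < p j) (k : ℕ) (c : Tup L) : (W L p k c).Nonempty :=
  ⟨fun j _ => ⟨0, hp j⟩, by simp [mem_W]⟩

lemma W_eq_box (k : ℕ) (c : Tup L) :
    W L p k c = Fintype.piFinset fun j : Fin a =>
      univ.filter fun v : Fin (L j) → Fin (p j) => j.val < k → (v (c j)).val = 0 := by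
  ext z
  simp [mem_W, Fintype.mem_piFinset]

lemma card_W_filter (hp : ∀ j, 0 < p j) (κ : Fin a) (c : Tup L) (B : Finset (Fin (L κ)))
    (S : Finset (Fin (p κ))) :
    (((W L p κ.val c).filter fun z => ∀ t ∈ B, z κ t ∈ S).card : ℝ)
      = ((S.card : ℝ) / p κ) ^ B.card * (W L p κ.val c).card := by
  have h1 := card_filter_box
    (fun j : Fin a => univ.filter fun v : Fin (L j) → Fin (p j) => j.val < κ.val → (v (c j)).val = 0)
    κ (by simp) (univ.filter fun v : Fin (L κ) → Fin (p κ) => ∀ t ∈ B, v t ∈ S)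
  rw [← W_eq_box] at h1
  have h2 := card_side (L κ) (p κ) B S
  simp only [mem_filter, mem_univ, true_and, Fintype.card_pi, Fintype.card_fin, prod_const,
    card_univ] at h1
  have hp' : (0 : ℝ) < p κ := by exact_mod_cast hp κ
  have h1' : ((((W L p κ.val c).filter fun z => ∀ t ∈ B, z κ t ∈ S).card : ℝ)) * (p κ : ℝ) ^ (L κ)
      = (W L p κ.val c).card
        * ((univ.filter fun v : Fin (L κ) → Fin (p κ) => ∀ t ∈ B, v t ∈ S).card : ℝ) := by
    exact_mod_cast h1
  have h2' : ((univ.filter fun v : Fin (L κ) → Fin (p κ) => ∀ t ∈ B, v t ∈ S).card : ℝ)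
      * (p κ : ℝ) ^ B.card = (S.card : ℝ) ^ B.card * (p κ : ℝ) ^ (L κ) := by
    exact_mod_cast h2
  have hpL : (0 : ℝ) < (p κ : ℝ) ^ (L κ) := pow_pos hp' _
  have hpB : (0 : ℝ) < (p κ : ℝ) ^ B.card := pow_pos hp' _
  rw [div_pow]
  field_simp
  apply mul_right_cancel₀ hpL.ne'
  calc _ = ((((W L p κ.val c).filter fun z => ∀ t ∈ B, z κ t ∈ S).card : ℝ) * (p κ : ℝ) ^ (L κ))
        * (p κ : ℝ) ^ B.card := by ring
    _ = (W L p κ.val c).card
        * (((univ.filter fun v : Fin (L κ) → Fin (p κ) => ∀ t ∈ B, v t ∈ S).card : ℝ)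
          * (p κ : ℝ) ^ B.card) := by rw [h1']; ring
    _ = _ := by rw [h2']; ring

lemma card_W_succ (hp : ∀ j, 0 < p j) (κ : Fin a) (c : Tup L) :
    ((W L p (κ.val + 1) c).card : ℝ) = (W L p κ.val c).card / p κ := by
  have h := card_W_filter hp κ c {c κ} {⟨0, hp κ⟩}
  have h2 : W L p (κ.val + 1) c
      = (W L p κ.val c).filter fun z => ∀ t ∈ ({c κ} : Finset (Fin (L κ))),
        z κ t ∈ ({⟨0, hp κ⟩} : Finset (Fin (p κ))) := by
    ext z
    simp only [mem_W_succ, mem_filter, mem_singleton, forall_eq]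
    simp [Fin.ext_iff]
  rw [h2, h]
  simp
  ring

lemma card_W_avoid (hp : ∀ j, 0 < p j) (κ : Fin a) (c : Tup L) (B : Finset (Fin (L κ))) :
    (((W L p κ.val c).filter fun z => ∀ t ∈ B, (z κ t).val ≠ 0).card : ℝ)
      = (1 - 1 / (p κ : ℝ)) ^ B.card * (W L p κ.val c).card := by
  have h := card_W_filter hp κ c B ({⟨0, hp κ⟩} : Finset (Fin (p κ)))ᶜ
  have h2 : ((W L p κ.val c).filter fun z => ∀ t ∈ B, (z κ t).val ≠ 0)
      = (W L p κ.val c).filter fun z => ∀ t ∈ B,
        z κ t ∈ ({⟨0, hp κ⟩} : Finset (Fin (p κ)))ᶜ := by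
    ext z
    simp [Fin.ext_iff]
  rw [h2, h]
  have hp' : (0 : ℝ) < p κ := by exact_mod_cast hp κ
  congr 2
  rw [card_compl, card_singleton, Fintype.card_fin, Nat.cast_sub (hp κ)]
  field_simp
  simp

/-- Canonical representatives of the initial segments of length `k`. -/
def Pre (hL : ∀ j, 0 < L j) (k : ℕ) : Finset (Tup L) :=
  Fintype.piFinset fun j : Fin a => if j.val < k then univ else {⟨0, hL j⟩}

lemma card_Pre (hL : ∀ j, 0 < L j) (k : ℕ) :
    (Pre hL k).card = ∏ j : Fin a, if j.val < k then L j else 1 := by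
  rw [Pre, Fintype.card_piFinset]
  apply Fintype.prod_congr
  intro j
  split_ifs <;> simp

lemma exists_Pre (hL : ∀ j, 0 < L j) (k : ℕ) (c : Tup L) :
    ∃ c0 ∈ Pre hL k, ∀ j : Fin a, j.val < k → c0 j = c j := by
  refine ⟨fun j => if j.val < k then c j else ⟨0, hL j⟩, ?_, ?_⟩
  · rw [Pre, Fintype.mem_piFinset]
    intro j
    split_ifs <;> simp
  · intro j hj
    simp [hj]

/-- Few coordinates destroy the density of `D` in a subcube. -/
lemma few_bad (hp : ∀ j, 0 < p j) (κ : Fin a) (c : Tup L) (D : Finset (Om L p)) (σ : ℕ)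
    (hσ : 0 < σ)
    (hc : ((W L p κ.val c).card : ℝ) ≤ σ * ((D ∩ W L p κ.val c).card : ℝ)) :
    (univ.filter fun t : Fin (L κ) =>
      ¬ (((W L p (κ.val + 1) (Function.update c κ t)).card : ℝ)
        ≤ (4 * σ ^ 2 : ℕ) * ((D ∩ W L p (κ.val + 1) (Function.update c κ t)).card : ℝ))).card
      ≤ 2 * σ * p κ := by
  by_contra hcon
  push Not at hcon
  obtain ⟨B, hB, hBc⟩ := Finset.exists_subset_card_eq hcon.le
  have hp' : (0 : ℝ) < p κ := by exact_mod_cast hp κ
  have hσ' : (0 : ℝ) < σ := by exact_mod_cast hσ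
  set w : ℝ := ((W L p κ.val c).card : ℝ) with hw
  have hwpos : 0 < w := by
    rw [hw]
    exact_mod_cast (W_nonempty hp _ c).card_pos
  have hsub : D ∩ W L p κ.val c ⊆ ((W L p κ.val c).filter fun z => ∀ t ∈ B, (z κ t).val ≠ 0)
      ∪ B.biUnion fun t => D ∩ W L p (κ.val + 1) (Function.update c κ t) := by
    intro z hz
    rw [mem_inter] at hz
    rw [mem_union, mem_filter, mem_biUnion]
    by_cases h : ∀ t ∈ B, (z κ t).val ≠ 0
    · exact Or.inl ⟨hz.2, h⟩
    · push Not at h
      obtain ⟨t, ht, hzt⟩ := h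
      refine Or.inr ⟨t, ht, ?_⟩
      rw [mem_inter, mem_W_succ, W_update]
      exact ⟨hz.1, hz.2, by simpa using hzt⟩
  have h1 : ((D ∩ W L p κ.val c).card : ℝ)
      ≤ (((W L p κ.val c).filter fun z => ∀ t ∈ B, (z κ t).val ≠ 0).card : ℝ)
        + ∑ t ∈ B, ((D ∩ W L p (κ.val + 1) (Function.update c κ t)).card : ℝ) := by
    have := (card_le_card hsub).trans ((card_union_le _ _).trans
      (Nat.add_le_add_left card_biUnion_le _))
    exact_mod_cast this
  have h2 : ∀ t ∈ B, ((D ∩ W L p (κ.val + 1) (Function.update c κ t)).card : ℝ)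
      ≤ w / (p κ * (4 * σ ^ 2)) := by
    intro t ht
    have h := (mem_filter.mp (hB ht)).2
    rw [card_W_succ hp, W_update] at h
    push_cast at h
    rw [le_div_iff₀ (by positivity)]
    rw [lt_div_iff₀ hp'] at h
    nlinarith
  have h3 : ∑ t ∈ B, ((D ∩ W L p (κ.val + 1) (Function.update c κ t)).card : ℝ)
      ≤ w / (2 * σ) := by
    calc _ ≤ ∑ t ∈ B, w / (p κ * (4 * σ ^ 2)) := sum_le_sum h2
      _ = (2 * σ * p κ : ℕ) * (w / (p κ * (4 * σ ^ 2))) := by
        rw [sum_const, hBc, nsmul_eq_mul]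
      _ = w / (2 * σ) := by
        push_cast
        field_simp
        ring
  have h4 : (1 - 1 / (p κ : ℝ)) ^ B.card * (1 + 2 * σ) ≤ 1 := by
    have hx0 : (0 : ℝ) ≤ 1 / (p κ : ℝ) := by positivity
    have hx1 : 1 / (p κ : ℝ) ≤ 1 := by
      rw [div_le_one hp']
      exact_mod_cast hp κ
    have hb : 1 + (B.card : ℝ) * (1 / (p κ : ℝ)) ≤ (1 + 1 / (p κ : ℝ)) ^ B.card :=
      one_add_mul_le_pow (by linarith) _
    have he : (B.card : ℝ) * (1 / (p κ : ℝ)) = 2 * σ := by
      rw [hBc]
      push_cast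
      field_simp
    rw [he] at hb
    calc (1 - 1 / (p κ : ℝ)) ^ B.card * (1 + 2 * σ)
        ≤ (1 - 1 / (p κ : ℝ)) ^ B.card * (1 + 1 / (p κ : ℝ)) ^ B.card :=
          mul_le_mul_of_nonneg_left hb (pow_nonneg (by linarith) _)
      _ = ((1 - 1 / (p κ : ℝ)) * (1 + 1 / (p κ : ℝ))) ^ B.card := by rw [mul_pow]
      _ ≤ 1 := pow_le_one₀ (by nlinarith) (by nlinarith)
  rw [card_W_avoid hp] at h1
  have h5 : (1 - 1 / (p κ : ℝ)) ^ B.card * w < w / (2 * σ) := by
    rw [lt_div_iff₀ (by positivity)]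
    have hx : 0 ≤ (1 - 1 / (p κ : ℝ)) ^ B.card := by
      apply pow_nonneg
      have : 1 / (p κ : ℝ) ≤ 1 := by
        rw [div_le_one hp']
        exact_mod_cast hp κ
      linarith
    rcases eq_or_lt_of_le hx with h0 | h0
    · rw [← h0]
      simpa using hwpos
    · nlinarith [mul_pos h0 hwpos]
  have h6 : ((D ∩ W L p κ.val c).card : ℝ) < w / σ := by
    have : w / (2 * σ) + w / (2 * σ) = w / σ := by
      field_simp
      ring
    linarith
  rw [lt_div_iff₀ hσ'] at h6
  linarith

end Levels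

end Vale.Agent.P126
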