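import Vale.Agent.P126.System

/-!
The matrix form of the counterexample.
-/

namespace Vale.Agent.P126

open Finset

lemma exists_range {Z : Type} [Nonempty Z] (s : Finset Z) (H : ℕ) (hs : s.card ≤ H) :
    ∃ g : Fin H → Z, ∀ z ∈ s, ∃ i, g i = z := by
  classical
  refine ⟨fun i => if h : i.val < s.card then (s.equivFin.symm ⟨i.val, h⟩ : Z)
    else Classical.arbitrary Z, ?_⟩
  intro z hz
  refine ⟨⟨(s.equivFin ⟨z, hz⟩).val, lt_of_lt_of_le (s.equivFin ⟨z, hz⟩).isLt hs⟩, ?_⟩
  simp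

lemma card_heavy {Y Z : Type} [Fintype Y] [Fintype Z] [DecidableEq Z] (w : Y → ℝ)
    (hw : ∀ y, 0 ≤ w y) (hs : ∑ y, w y ≤ 1) (ρ : Y → Z) (h : ℕ) (hh : 0 < h) :
    (univ.filter fun z => 1 / (h : ℝ) < ∑ y ∈ univ.filter (fun y => ρ y = z), w y).card ≤ h := by
  set s := univ.filter fun z => 1 / (h : ℝ) < ∑ y ∈ univ.filter (fun y => ρ y = z), w y with hsdef
  have hh' : (0 : ℝ) < h := by exact_mod_cast hh
  have h1 : (s.card : ℝ) * (1 / (h : ℝ)) ≤ 1 := by
    calc (s.card : ℝ) * (1 / (h : ℝ)) = ∑ z ∈ s, 1 / (h : ℝ) := by simp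
      _ ≤ ∑ z ∈ s, ∑ y ∈ univ.filter (fun y => ρ y = z), w y := by
          apply sum_le_sum
          intro z hz
          exact (mem_filter.mp hz).2.le
      _ ≤ ∑ z, ∑ y ∈ univ.filter (fun y => ρ y = z), w y :=
          sum_le_sum_of_subset_of_nonneg (subset_univ _)
            fun z _ _ => sum_nonneg fun y _ => hw y
      _ = ∑ y, w y := Finset.sum_fiberwise univ ρ w
      _ ≤ 1 := hs
  rw [mul_one_div, div_le_one hh'] at h1
  exact_mod_cast h1

lemma sum_biUnion_le_of_nonneg {Y C : Type} [DecidableEq Y] (w : Y → ℝ) (hw : ∀ y, 0 ≤ w y)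
    (s : Finset C) (t : C → Finset Y) :
    ∑ y ∈ s.biUnion t, w y ≤ ∑ c ∈ s, ∑ y ∈ t c, w y := by
  classical
  induction s using Finset.induction_on with
  | empty => simp
  | insert c s hc ih =>
    rw [biUnion_insert, sum_insert hc]
    have h1 := sum_union_inter (s₁ := t c) (s₂ := s.biUnion t) (f := w)
    have h2 : 0 ≤ ∑ y ∈ t c ∩ s.biUnion t, w y := sum_nonneg fun y _ => hw y
    linarith

section Matrix

variable (a T q : ℕ)

/-- Labelings of the ground set. -/
abbrev XX : Type := Om (Lf a T) (pf a T) → Fin q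

/-- Test points. -/
abbrev YY : Type := Ign a T × XX a T q

/-- Labelings of a subcube of level `k + 1`. -/
abbrev Pat (k : ℕ) : Type :=
  Σ c : Tup (Lf a T), (W (Lf a T) (pf a T) (k + 1) c → Fin q)

variable {a T q}

/-- Agreement on an allowed subcube of level `k`. -/
def EE (k : ℕ) (α : XX a T q) (y : YY a T q) : Prop :=
  ∃ c, ok k y.1 c ∧ ∀ z ∈ W (Lf a T) (pf a T) k c, α z = y.2 z

open Classical in
/-- The matrix. -/
noncomputable def ff (α : XX a T q) (y : YY a T q) : ℝ :=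
  ∑ k ∈ range (a + 1), if EE k α y then 1 else 0

/-- A labeling extends a pattern. -/
def Mt {k : ℕ} (α : XX a T q) (π : Pat a T q k) : Prop :=
  ∀ z : W (Lf a T) (pf a T) (k + 1) π.1, α z = π.2 z

/-- A test point is compatible with a pattern. -/
def My {k : ℕ} (y : YY a T q) (π : Pat a T q k) : Prop :=
  ok (k + 1) y.1 π.1 ∧ Mt y.2 π

lemma EE_of_match {k : ℕ} {α : XX a T q} {y : YY a T q} {π : Pat a T q k} (h1 : Mt α π)
    (h2 : My y π) : EE (k + 1) α y :=
  ⟨π.1, h2.1, fun z hz => (h1 ⟨z, hz⟩).trans (h2.2 ⟨z, hz⟩).symm⟩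

open Classical in
/-- One level of the sketch. -/
lemma level_sketch (ha : 0 < a) (hT : 0 < T) (hq : 0 < q) (w : YY a T q → ℝ) (hw : ∀ y, 0 ≤ w y)
    (hs : ∑ y, w y ≤ 1) (κ : Fin a) :
    ∃ g : Fin (Rr a T κ.val * (2 * a * Rr a T κ.val)) → Pat a T q κ.val, ∀ α : XX a T q,
      ∑ y ∈ univ.filter (fun y => EE κ.val α y ∧ ¬ ∃ i, Mt α (g i) ∧ My y (g i)), w y
        ≤ 1 / a := by
  obtain ⟨B, P, hB, hP, hext⟩ := extension ha hT (fun y : YY a T q => y.1) w hw hs κ
  have hR := Rr_pos ha hT κ.val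
  have ha' : (0 : ℝ) < a := by exact_mod_cast ha
  have hR' : (0 : ℝ) < Rr a T κ.val := by exact_mod_cast hR
  set h : ℕ := 2 * a * Rr a T κ.val with hh
  have hhpos : 0 < h := by positivity
  let ρ : ∀ c : Tup (Lf a T), XX a T q → (W (Lf a T) (pf a T) (κ.val + 1) c → Fin q) :=
    fun c α z => α z
  let Hv : Finset (Pat a T q κ.val) := P.sigma fun c =>
    univ.filter fun β => 1 / (h : ℝ) < ∑ y ∈ univ.filter (fun y : YY a T q => ρ c y.2 = β), w y
  have hHv : Hv.card ≤ Rr a T κ.val * h := by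
    rw [card_sigma]
    calc _ ≤ ∑ c ∈ P, h := sum_le_sum fun c _ => card_heavy w hw hs (fun y => ρ c y.2) h hhpos
      _ = P.card * h := by simp
      _ ≤ _ := Nat.mul_le_mul_right _ hP
  have hne : Nonempty (Pat a T q κ.val) :=
    ⟨⟨fun j => ⟨0, LL_pos ha hT _⟩, fun _ => ⟨0, hq⟩⟩⟩
  obtain ⟨g, hg⟩ := exists_range Hv _ hHv
  refine ⟨g, fun α => ?_⟩
  let Lt : Finset (Tup (Lf a T)) := P.filter fun c => (⟨c, ρ c α⟩ : Pat a T q κ.val) ∉ Hv
  have hsub : univ.filter (fun y => EE κ.val α y ∧ ¬ ∃ i, Mt α (g i) ∧ My y (g i))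
      ⊆ B ∪ Lt.biUnion fun c => univ.filter (fun y : YY a T q => ρ c y.2 = ρ c α) := by
    intro y hy
    rw [mem_filter] at hy
    obtain ⟨-, ⟨c, hc, hαc⟩, hno⟩ := hy
    rw [mem_union]
    by_cases hyB : y ∈ B
    · exact Or.inl hyB
    right
    obtain ⟨c', hc'P, hc'ok, hc'W⟩ := hext y hyB c hc
    have heq : ρ c' y.2 = ρ c' α := by
      funext z
      exact (hαc z (hc'W z.2)).symm
    rw [mem_biUnion]
    refine ⟨c', ?_, by simpa using heq⟩
    rw [mem_filter]
    refine ⟨hc'P, fun hmem => hno ?_⟩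
    obtain ⟨i, hi⟩ := hg _ hmem
    refine ⟨i, ?_, ?_⟩
    · rw [hi]
      intro z
      rfl
    · rw [hi]
      refine ⟨hc'ok, fun z => ?_⟩
      exact (hαc z (hc'W z.2)).symm
  have hlight : ∀ c ∈ Lt,
      ∑ y ∈ univ.filter (fun y : YY a T q => ρ c y.2 = ρ c α), w y ≤ 1 / (h : ℝ) := by
    intro c hc
    rw [mem_filter] at hc
    by_contra hcon
    apply hc.2
    rw [mem_sigma]
    exact ⟨hc.1, by simpa using hcon⟩
  calc _ ≤ ∑ y ∈ B ∪ Lt.biUnion fun c => univ.filter (fun y : YY a T q => ρ c y.2 = ρ c α), w y :=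
        sum_le_sum_of_subset_of_nonneg hsub fun y _ _ => hw y
    _ ≤ ∑ y ∈ B, w y
        + ∑ y ∈ Lt.biUnion fun c => univ.filter (fun y : YY a T q => ρ c y.2 = ρ c α), w y := by
        rw [← sum_union_inter]
        have : 0 ≤ ∑ y ∈ B ∩ Lt.biUnion fun c =>
          univ.filter (fun y : YY a T q => ρ c y.2 = ρ c α), w y := sum_nonneg fun y _ => hw y
        linarith
    _ ≤ 1 / (2 * a) + ∑ c ∈ Lt,
          ∑ y ∈ univ.filter (fun y : YY a T q => ρ c y.2 = ρ c α), w y := by
        apply add_le_add hB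
        exact sum_biUnion_le_of_nonneg w hw _ _
    _ ≤ 1 / (2 * a) + ∑ c ∈ Lt, 1 / (h : ℝ) := by
        gcongr with c hc
        exact hlight c hc
    _ ≤ 1 / (2 * a) + (Rr a T κ.val : ℝ) * (1 / (h : ℝ)) := by
        rw [sum_const, nsmul_eq_mul]
        have : (Lt.card : ℝ) ≤ Rr a T κ.val := by
          exact_mod_cast (card_filter_le _ _).trans hP
        gcongr
    _ = 1 / a := by
        rw [hh]
        push_cast
        field_simp
        ring

variable (a T q)

/-- Number of slots at level `k`. -/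
abbrev HH (k : ℕ) : ℕ := Rr a T k * (2 * a * Rr a T k)

/-- All slots. -/
abbrev Slots : Type := Σ κ : Fin a, Fin (HH a T κ.val)

/-- The sketches. -/
abbrev Sk : Type :=
  (∀ κ : Fin a, Fin (HH a T κ.val) → Pat a T q κ.val) × (Finset (Slots a T) → Icc (-(a : ℤ)) a)

variable {a T q}

open Classical in
/-- The estimate attached to a sketch. -/
noncomputable def est (s : Sk a T q) (α : XX a T q) : ℝ :=
  ((s.2 (univ.filter fun u : Slots a T => Mt α (s.1 u.1 u.2)) : ℤ) : ℝ)

open Classical in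
lemma dual_bound (ha : 0 < a) (hT : 0 < T) (hq : 0 < q) (ν : YY a T q → ℝ)
    (hν : ∑ y, |ν y| ≤ 1) :
    ∃ s : Sk a T q, ∀ α, |∑ y, ν y * ff α y - est s α| ≤ 3 := by
  have ha' : (0 : ℝ) < a := by exact_mod_cast ha
  choose g hg using fun κ : Fin a =>
    level_sketch ha hT hq (fun y => |ν y|) (fun y => abs_nonneg _) hν κ
  let G : Finset (Slots a T) → YY a T q → ℝ := fun A y =>
    ∑ κ : Fin a, if ∃ i, (⟨κ, i⟩ : Slots a T) ∈ A ∧ My y (g κ i) then 1 else 0
  have hG0 : ∀ A y, 0 ≤ G A y := fun A y => sum_nonneg fun κ _ => by split_ifs <;> norm_num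
  have hGa : ∀ A y, G A y ≤ a := by
    intro A y
    calc G A y ≤ ∑ κ : Fin a, (1 : ℝ) := sum_le_sum fun κ _ => by split_ifs <;> norm_num
      _ = a := by simp
  let φ : Finset (Slots a T) → ℝ := fun A => ∑ y, ν y * G A y
  have hφ : ∀ A, |φ A| ≤ a := by
    intro A
    calc |φ A| ≤ ∑ y, |ν y * G A y| := abs_sum_le_sum_abs _ _
      _ ≤ ∑ y, |ν y| * a := by
          apply sum_le_sum
          intro y _
          rw [abs_mul, abs_of_nonneg (hG0 A y)]
          exact mul_le_mul_of_nonneg_left (hGa A y) (abs_nonneg _)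
      _ = (∑ y, |ν y|) * a := by rw [sum_mul]
      _ ≤ 1 * a := mul_le_mul_of_nonneg_right hν ha'.le
      _ = a := one_mul _
  have hmem : ∀ A, ⌊φ A⌋ ∈ Icc (-(a : ℤ)) a := by
    intro A
    have h := abs_le.mp (hφ A)
    rw [mem_Icc]
    constructor
    · rw [Int.le_floor]
      push_cast
      exact h.1
    · have : (⌊φ A⌋ : ℝ) ≤ ((a : ℤ) : ℝ) := (Int.floor_le _).trans (by exact_mod_cast h.2)
      exact_mod_cast this
  refine ⟨⟨g, fun A => ⟨⌊φ A⌋, hmem A⟩⟩, fun α => ?_⟩
  set A : Finset (Slots a T) := univ.filter fun u : Slots a T => Mt α (g u.1 u.2) with hA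
  have hest : est (⟨g, fun A => ⟨⌊φ A⌋, hmem A⟩⟩ : Sk a T q) α = (⌊φ A⌋ : ℝ) := rfl
  rw [hest]
  have hGA : ∀ y, G A y = ∑ κ : Fin a, if ∃ i, Mt α (g κ i) ∧ My y (g κ i) then 1 else 0 := by
    intro y
    simp only [G, hA, mem_filter, mem_univ, true_and]
  have hpt : ∀ y, |ff α y - G A y| ≤ 1 + ∑ κ : Fin a,
      if EE κ.val α y ∧ ¬ ∃ i, Mt α (g κ i) ∧ My y (g κ i) then 1 else 0 := by
    intro y
    have hnn : (0 : ℝ) ≤ ∑ κ : Fin a,
        if EE κ.val α y ∧ ¬ ∃ i, Mt α (g κ i) ∧ My y (g κ i) then 1 else 0 :=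
      sum_nonneg fun κ _ => by split_ifs <;> norm_num
    rw [hGA, abs_le]
    constructor
    · have h1 : (∑ κ : Fin a, if ∃ i, Mt α (g κ i) ∧ My y (g κ i) then (1 : ℝ) else 0)
          ≤ ∑ κ : Fin a, if EE (κ.val + 1) α y then 1 else 0 := by
        apply sum_le_sum
        intro κ _
        by_cases h : ∃ i, Mt α (g κ i) ∧ My y (g κ i)
        · obtain ⟨i, h1, h2⟩ := h
          rw [if_pos (EE_of_match h1 h2)]
          split_ifs <;> norm_num
        · rw [if_neg h]
          split_ifs <;> norm_num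
      have h2 : ff α y = (∑ κ : Fin a, if EE (κ.val + 1) α y then 1 else 0)
          + if EE 0 α y then 1 else 0 := by
        rw [ff, sum_range_succ', Finset.sum_range fun k => if EE (k + 1) α y then (1 : ℝ) else 0]
      have h3 : (0 : ℝ) ≤ if EE 0 α y then 1 else 0 := by split_ifs <;> norm_num
      linarith
    · have h2 : ff α y = (∑ κ : Fin a, if EE κ.val α y then 1 else 0)
          + if EE a α y then 1 else 0 := by
        rw [ff, sum_range_succ, Finset.sum_range fun k => if EE k α y then (1 : ℝ) else 0]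
      have h3 : (if EE a α y then (1 : ℝ) else 0) ≤ 1 := by split_ifs <;> norm_num
      have h1 : (∑ κ : Fin a, if EE κ.val α y then (1 : ℝ) else 0)
          ≤ (∑ κ : Fin a, if ∃ i, Mt α (g κ i) ∧ My y (g κ i) then (1 : ℝ) else 0)
            + ∑ κ : Fin a,
              if EE κ.val α y ∧ ¬ ∃ i, Mt α (g κ i) ∧ My y (g κ i) then 1 else 0 := by
        rw [← sum_add_distrib]
        apply sum_le_sum
        intro κ _
        by_cases h : ∃ i, Mt α (g κ i) ∧ My y (g κ i) <;> by_cases h' : EE κ.val α y <;>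
          simp [h, h']
      linarith
  have h2 : |∑ y, ν y * ff α y - φ A| ≤ 2 := by
    calc |∑ y, ν y * ff α y - φ A| = |∑ y, ν y * (ff α y - G A y)| := by
          simp only [φ, mul_sub, sum_sub_distrib]
      _ ≤ ∑ y, |ν y * (ff α y - G A y)| := abs_sum_le_sum_abs _ _
      _ ≤ ∑ y, |ν y| * (1 + ∑ κ : Fin a,
            if EE κ.val α y ∧ ¬ ∃ i, Mt α (g κ i) ∧ My y (g κ i) then 1 else 0) := by
          apply sum_le_sum
          intro y _
          rw [abs_mul]
          exact mul_le_mul_of_nonneg_left (hpt y) (abs_nonneg _)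
      _ = ∑ y, |ν y| + ∑ κ : Fin a, ∑ y ∈ univ.filter
            (fun y => EE κ.val α y ∧ ¬ ∃ i, Mt α (g κ i) ∧ My y (g κ i)), |ν y| := by
          simp only [mul_add, mul_one, sum_add_distrib, mul_sum, sum_filter, mul_ite, mul_zero]
          rw [sum_comm]
      _ ≤ 1 + ∑ κ : Fin a, 1 / (a : ℝ) := add_le_add hν (sum_le_sum fun κ _ => hg κ α)
      _ = 2 := by
          simp only [sum_const, card_univ, Fintype.card_fin, nsmul_eq_mul]
          field_simp
          norm_num
  have h3 : |φ A - (⌊φ A⌋ : ℝ)| ≤ 1 := by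
    rw [abs_le]
    constructor
    · linarith [Int.floor_le (φ A)]
    · linarith [Int.lt_floor_add_one (φ A)]
  calc |∑ y, ν y * ff α y - (⌊φ A⌋ : ℝ)|
      = |(∑ y, ν y * ff α y - φ A) + (φ A - (⌊φ A⌋ : ℝ))| := by ring_nf
    _ ≤ _ := abs_add_le _ _
    _ ≤ 3 := by linarith

open Classical in
lemma primal_close (ha : 0 < a) (hT : 0 < T) (α α' : XX a T q)
    (h : ∀ y, |ff α y - ff α' y| ≤ a) :
    (univ.filter fun z => α z ≠ α' z).card ≤ Fintype.card (Om (Lf a T) (pf a T)) / 2 := by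
  by_contra hcon
  obtain ⟨I, hI⟩ := separation ha hT (univ.filter fun z => α z ≠ α' z) (by omega)
  have h1 : ff α (I, α) = a + 1 := by
    obtain ⟨c, hc⟩ := exists_ok ha hT I
    have : ∀ k, EE k α (I, α) := fun k => ⟨c, hc k, fun z _ => rfl⟩
    simp [ff, this]
  have h2 : ff α' (I, α) = 0 := by
    apply sum_eq_zero
    intro k hk
    rw [if_neg]
    rintro ⟨c, hc, hz⟩
    obtain ⟨z, hz'⟩ := hI k (by simpa [Nat.lt_succ_iff] using hk) c hc
    rw [mem_inter, mem_filter] at hz'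
    exact hz'.1.2 (hz z hz'.2).symm
  have h3 := h (I, α)
  rw [h1, h2, sub_zero, abs_of_nonneg (by positivity)] at h3
  linarith

end Matrix

lemma card_hamming {Ω : Type} [Fintype Ω] [DecidableEq Ω] {q : ℕ} (hq : 0 < q) (α : Ω → Fin q)
    (e : ℕ) :
    (univ.filter fun α' : Ω → Fin q => (univ.filter fun z => α z ≠ α' z).card ≤ e).card
      ≤ 2 ^ Fintype.card Ω * q ^ e := by
  have hsub : (univ.filter fun α' : Ω → Fin q => (univ.filter fun z => α z ≠ α' z).card ≤ e)
      ⊆ (univ.filter fun D : Finset Ω => D.card ≤ e).biUnion fun D =>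
        Fintype.piFinset fun z => if z ∈ D then univ else {α z} := by
    intro α' h
    rw [mem_filter] at h
    rw [mem_biUnion]
    refine ⟨univ.filter fun z => α z ≠ α' z, by simpa using h.2, ?_⟩
    rw [Fintype.mem_piFinset]
    intro z
    by_cases hz : α z = α' z <;> simp [hz]
  calc _ ≤ _ := card_le_card hsub
    _ ≤ ∑ D ∈ univ.filter fun D : Finset Ω => D.card ≤ e,
        (Fintype.piFinset fun z => if z ∈ D then (univ : Finset (Fin q)) else {α z}).card :=
        card_biUnion_le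
    _ ≤ ∑ D ∈ univ.filter fun D : Finset Ω => D.card ≤ e, q ^ e := by
        apply sum_le_sum
        intro D hD
        rw [Fintype.card_piFinset]
        have h2 : ∀ z, (if z ∈ D then (univ : Finset (Fin q)) else {α z}).card
            = if z ∈ D then q else 1 := by
          intro z
          split_ifs <;> simp
        simp only [h2]
        rw [← Finset.prod_filter]
        simp only [filter_mem_eq_inter, univ_inter, prod_const]
        exact Nat.pow_le_pow_right hq (mem_filter.mp hD).2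
    _ ≤ ∑ D : Finset Ω, q ^ e := sum_le_sum_of_subset (filter_subset _ _)
    _ = _ := by simp

lemma card_Sk_le {a T : ℕ} (ha : 0 < a) (hT : 0 < T) :
    ∃ C e : ℕ, T * e ≤ 2 * a ^ 2 * Fintype.card (Om (Lf a T) (pf a T)) ∧
      ∀ q : ℕ, 0 < q → Fintype.card (Sk a T q) ≤ C * q ^ e := by
  classical
  set n := Fintype.card (Om (Lf a T) (pf a T)) with hn
  refine ⟨(∏ κ : Fin a, Fintype.card (Tup (Lf a T)) ^ HH a T κ.val)
      * Fintype.card (Finset (Slots a T) → Icc (-(a : ℤ)) a),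
    ∑ κ : Fin a, (n / pp a T κ.val) * HH a T κ.val, ?_, ?_⟩
  · rw [mul_sum]
    calc ∑ κ : Fin a, T * ((n / pp a T κ.val) * HH a T κ.val)
        ≤ ∑ κ : Fin a, 2 * a * n := by
          apply sum_le_sum
          intro κ _
          have h := Nat.div_mul_le_self n (pp a T κ.val)
          calc T * ((n / pp a T κ.val) * HH a T κ.val)
              = 2 * a * ((n / pp a T κ.val) * pp a T κ.val) := by
                simp only [HH, pp]
                ring
            _ ≤ 2 * a * n := Nat.mul_le_mul_left _ h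
      _ = 2 * a ^ 2 * n := by
          simp
          ring
  · intro q hq
    have hpat : ∀ κ : Fin a, Fintype.card (Pat a T q κ.val)
        ≤ Fintype.card (Tup (Lf a T)) * q ^ (n / pp a T κ.val) := by
      intro κ
      rw [Fintype.card_sigma]
      calc ∑ c : Tup (Lf a T), Fintype.card (W (Lf a T) (pf a T) (κ.val + 1) c → Fin q)
          ≤ ∑ c : Tup (Lf a T), q ^ (n / pp a T κ.val) := by
            apply sum_le_sum
            intro c _
            rw [Fintype.card_fun, Fintype.card_fin, Fintype.card_coe]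
            apply Nat.pow_le_pow_right hq
            rw [Nat.le_div_iff_mul_le (pp_pos ha hT _), mul_comm]
            exact card_W_small ha hT κ c
        _ = _ := by simp
    rw [Fintype.card_prod, Fintype.card_pi]
    calc (∏ κ : Fin a, Fintype.card (Fin (HH a T κ.val) → Pat a T q κ.val))
          * Fintype.card (Finset (Slots a T) → Icc (-(a : ℤ)) a)
        ≤ (∏ κ : Fin a, (Fintype.card (Tup (Lf a T)) * q ^ (n / pp a T κ.val)) ^ HH a T κ.val)
          * Fintype.card (Finset (Slots a T) → Icc (-(a : ℤ)) a) := by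
          apply Nat.mul_le_mul_right
          apply Finset.prod_le_prod'
          intro κ _
          rw [Fintype.card_fun, Fintype.card_fin]
          exact Nat.pow_le_pow_left (hpat κ) _
      _ = _ := by
          simp only [mul_pow, prod_mul_distrib, ← pow_mul, prod_pow_eq_pow_sum]
          ring

open Classical in
/-- The matrix form of the counterexample. -/
theorem core (a b : ℕ) (ha : 0 < a) (hb : 0 < b) :
    ∃ (X Y S : Type) (_ : Fintype X) (_ : Fintype Y) (_ : Fintype S) (f : X → Y → ℝ)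
      (h : S → X → ℝ) (M : ℕ), Nonempty Y ∧
      (∀ ν : Y → ℝ, ∑ y, |ν y| ≤ 1 → ∃ s, ∀ x, |∑ y, ν y * f x y - h s x| ≤ 3) ∧
      (∀ x, (univ.filter fun x' => ∀ y, |f x y - f x' y| ≤ a).card ≤ M) ∧
      Fintype.card S ^ b * M < Fintype.card X := by
  set T : ℕ := 8 * a ^ 2 * b with hTdef
  have hT : 0 < T := by positivity
  obtain ⟨C, e, he, hC⟩ := card_Sk_le ha hT
  set n := Fintype.card (Om (Lf a T) (pf a T)) with hn
  have hnpos : 0 < n := by
    rw [hn, Fintype.card_pos_iff]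
    exact ⟨fun j _ => ⟨0, pp_pos ha hT _⟩⟩
  set q : ℕ := C ^ b * 2 ^ n + 1 with hqdef
  have hq : 0 < q := Nat.succ_pos _
  refine ⟨XX a T q, YY a T q, Sk a T q, inferInstance, inferInstance, inferInstance, ff, est,
    2 ^ n * q ^ (n / 2), ⟨(Classical.arbitrary _, fun _ => ⟨0, hq⟩)⟩,
    fun ν hν => dual_bound ha hT hq ν hν, ?_, ?_⟩
  · intro α
    refine le_trans (card_le_card ?_) (card_hamming hq α (n / 2))
    intro α' h
    rw [mem_filter] at h ⊢
    refine ⟨mem_univ _, ?_⟩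
    have := primal_close ha hT α α' h.2
    convert this
  · have h4 : 4 * (e * b) ≤ n := by
      have h5 : (2 * a ^ 2) * (4 * (e * b)) ≤ (2 * a ^ 2) * n := by
        calc (2 * a ^ 2) * (4 * (e * b)) = T * e := by rw [hTdef]; ring
          _ ≤ _ := he
      exact Nat.le_of_mul_le_mul_left h5 (by positivity)
    have h6 : e * b + n / 2 + 1 ≤ n := by omega
    have hX : Fintype.card (XX a T q) = q ^ n := by
      rw [Fintype.card_fun, Fintype.card_fin]
    rw [hX]
    calc Fintype.card (Sk a T q) ^ b * (2 ^ n * q ^ (n / 2))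
        ≤ (C * q ^ e) ^ b * (2 ^ n * q ^ (n / 2)) :=
          Nat.mul_le_mul_right _ (Nat.pow_le_pow_left (hC q hq) _)
      _ = (C ^ b * 2 ^ n) * q ^ (e * b + n / 2) := by
          rw [mul_pow, ← pow_mul, pow_add]
          ring
      _ < q * q ^ (e * b + n / 2) :=
          Nat.mul_lt_mul_of_pos_right (Nat.lt_succ_self _) (pow_pos hq _)
      _ = q ^ (e * b + n / 2 + 1) := by ring
      _ ≤ q ^ n := Nat.pow_le_pow_right hq h6

end Vale.Agent.P126
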