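import Vale.Agent.P126.Defs
import Vale.Agent.P126.Core

/-!
From the matrix form to convex bodies.
-/

namespace Vale.Agent.P126

open Finset
open scoped Pointwise

variable {n : ℕ}

lemma IsSymmBody.neg_mem {K : Set (EuclideanSpace ℝ (Fin n))} (hK : IsSymmBody K)
    {x : EuclideanSpace ℝ (Fin n)} (hx : x ∈ K) : -x ∈ K := by
  rw [hK.2.2.2]
  simpa using hx

lemma IsSymmBody.zero_mem_interior {K : Set (EuclideanSpace ℝ (Fin n))} (hK : IsSymmBody K) :
    (0 : EuclideanSpace ℝ (Fin n)) ∈ interior K := by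
  obtain ⟨x, hx⟩ := hK.2.2.1
  have h := hK.2.1.combo_interior_self_mem_interior hx (hK.neg_mem (interior_subset hx))
    (a := 1 / 2) (b := 1 / 2) (by norm_num) (by norm_num) (by norm_num)
  simpa using h

lemma exists_cover {A B : Set (EuclideanSpace ℝ (Fin n))} (hA : IsCompact A)
    (hB : (0 : EuclideanSpace ℝ (Fin n)) ∈ interior B) :
    ∃ s : Finset (EuclideanSpace ℝ (Fin n)), s.card = coverNum A B ∧ A ⊆ ⋃ x ∈ s, x +ᵥ B := by
  have hne : {m : ℕ | ∃ s : Finset (EuclideanSpace ℝ (Fin n)), s.card = m ∧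
      A ⊆ ⋃ x ∈ s, x +ᵥ B}.Nonempty := by
    obtain ⟨t, -, ht⟩ := hA.elim_nhds_subcover (fun x => x +ᵥ B) fun x _ => by
      have h : B ∈ nhds (0 : EuclideanSpace ℝ (Fin n)) := mem_interior_iff_mem_nhds.mp hB
      have h2 := vadd_mem_nhds_vadd x h
      simpa using h2
    exact ⟨t.card, t, rfl, ht⟩
  exact Nat.sInf_mem hne

lemma coverNum_le {A B : Set (EuclideanSpace ℝ (Fin n))}
    (s : Finset (EuclideanSpace ℝ (Fin n))) (hs : A ⊆ ⋃ x ∈ s, x +ᵥ B) :
    coverNum A B ≤ s.card :=
  Nat.sInf_le ⟨s, rfl, hs⟩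

lemma coverNum_le_card {A B : Set (EuclideanSpace ℝ (Fin n))} {S : Type} [Fintype S]
    (P : S → EuclideanSpace ℝ (Fin n) → Prop) (h1 : ∀ v ∈ A, ∃ s, P s v)
    (h2 : ∀ s, ∀ v ∈ A, ∀ v' ∈ A, P s v → P s v' → v - v' ∈ B) :
    coverNum A B ≤ Fintype.card S := by
  classical
  let rep : S → EuclideanSpace ℝ (Fin n) := fun s =>
    if h : ∃ v ∈ A, P s v then h.choose else 0
  refine (coverNum_le (univ.image rep) ?_).trans (card_image_le.trans (by simp))
  intro v hv
  obtain ⟨s, hs⟩ := h1 v hv
  have hex : ∃ v ∈ A, P s v := ⟨v, hv, hs⟩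
  have hrep : rep s = hex.choose := by simp only [rep, dif_pos hex]
  simp only [Set.mem_iUnion]
  refine ⟨rep s, mem_image_of_mem _ (mem_univ s), ?_⟩
  rw [Set.mem_vadd_set]
  refine ⟨v - rep s, ?_, by simp⟩
  rw [hrep]
  exact h2 s v hv _ hex.choose_spec.1 hs hex.choose_spec.2

open Classical in
lemma card_le_coverNum_mul {A B : Set (EuclideanSpace ℝ (Fin n))} (hA : IsCompact A)
    (hB : (0 : EuclideanSpace ℝ (Fin n)) ∈ interior B) {X : Type} [Fintype X]
    (F : X → EuclideanSpace ℝ (Fin n)) (hF : ∀ x, F x ∈ A) (R : X → X → Prop) (M : ℕ)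
    (hR : ∀ x x', ∀ u ∈ B, ∀ u' ∈ B, F x - F x' = u - u' → R x x')
    (hM : ∀ x, (univ.filter fun x' => R x x').card ≤ M) :
    Fintype.card X ≤ coverNum A B * M := by
  obtain ⟨s, hs, hcov⟩ := exists_cover hA hB
  have hsub : (univ : Finset X) ⊆ s.biUnion fun v => univ.filter fun x => F x ∈ v +ᵥ B := by
    intro x _
    have := hcov (hF x)
    simp only [Set.mem_iUnion] at this
    obtain ⟨v, hv, hx⟩ := this
    rw [mem_biUnion]
    exact ⟨v, hv, by simpa using hx⟩
  calc Fintype.card X = (univ : Finset X).card := rfl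
    _ ≤ _ := card_le_card hsub
    _ ≤ ∑ v ∈ s, (univ.filter fun x => F x ∈ v +ᵥ B).card := card_biUnion_le
    _ ≤ ∑ v ∈ s, M := by
        apply sum_le_sum
        intro v _
        rcases (univ.filter fun x => F x ∈ v +ᵥ B).eq_empty_or_nonempty with h | ⟨x, hx⟩
        · rw [h]
          simp
        · refine le_trans (card_le_card ?_) (hM x)
          intro x' hx'
          rw [mem_filter] at hx hx' ⊢
          obtain ⟨u, hu, hxu⟩ := Set.mem_vadd_set.mp hx.2
          obtain ⟨u', hu', hxu'⟩ := Set.mem_vadd_set.mp hx'.2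
          refine ⟨mem_univ _, hR x x' u hu u' hu' ?_⟩
          rw [← hxu, ← hxu']
          simp
    _ = coverNum A B * M := by rw [sum_const, hs, smul_eq_mul]

/-- The cube of half side `r`. -/
def cube (n : ℕ) (r : ℝ) : Set (EuclideanSpace ℝ (Fin n)) := {v | ∀ i, |v i| ≤ r}

lemma ball_subset_cube (r : ℝ) : Metric.ball (0 : EuclideanSpace ℝ (Fin n)) r ⊆ cube n r := by
  intro v hv i
  rw [mem_ball_zero_iff] at hv
  exact (PiLp.norm_apply_le v i).trans hv.le

lemma isSymmBody_cube {r : ℝ} (hr : 0 < r) : IsSymmBody (cube n r) := by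
  refine ⟨?_, ?_, ?_, ?_⟩
  · apply Metric.isCompact_of_isClosed_isBounded
    · have : cube n r = ⋂ i, {v : EuclideanSpace ℝ (Fin n) | |v i| ≤ r} := by
        ext v
        simp [cube]
      rw [this]
      apply isClosed_iInter
      intro i
      apply isClosed_le _ continuous_const
      fun_prop
    · rw [isBounded_iff_forall_norm_le]
      refine ⟨√(n * r ^ 2), fun v hv => ?_⟩
      rw [EuclideanSpace.norm_eq]
      apply Real.sqrt_le_sqrt
      calc ∑ i, ‖v i‖ ^ 2 ≤ ∑ i : Fin n, r ^ 2 := by
            apply sum_le_sum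
            intro i _
            exact pow_le_pow_left₀ (norm_nonneg _) (hv i) 2
        _ = n * r ^ 2 := by simp
  · intro v hv w hw s t hs ht hst i
    have h1 := abs_le.mp (hv i)
    have h2 := abs_le.mp (hw i)
    simp only [PiLp.add_apply, PiLp.smul_apply, smul_eq_mul]
    rw [abs_le]
    constructor <;> nlinarith
  · exact ⟨0, interior_mono (ball_subset_cube r) (by
      rw [Metric.isOpen_ball.interior_eq]
      exact Metric.mem_ball_self hr)⟩
  · ext v
    simp [cube]

lemma inner_eq_sum (x y : EuclideanSpace ℝ (Fin n)) : inner ℝ x y = ∑ i, y i * x i := by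
  simp [PiLp.inner_apply]

lemma sum_abs_le_of_mem_polar_cube {v : EuclideanSpace ℝ (Fin n)}
    (hv : v ∈ polarSet (cube n 1)) : ∑ i, |v i| ≤ 1 := by
  have h := hv (WithLp.toLp 2 fun i => if 0 ≤ v i then 1 else -1) (by
    intro i
    simp only
    split_ifs <;> simp)
  rw [inner_eq_sum] at h
  refine le_trans (le_of_eq ?_) h
  apply sum_congr rfl
  intro i _
  simp only
  split_ifs with h0
  · rw [abs_of_nonneg h0, mul_one]
  · rw [abs_of_neg (not_le.mp h0)]
    ring

/-- The right-hand inequality fails, with `L` the unit cube. -/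
theorem right_fails (a b : ℝ) (ha : 1 ≤ a) (hb : 1 ≤ b) :
    ∃ n : ℕ, 1 ≤ n ∧ ∃ K : Set (EuclideanSpace ℝ (Fin n)), IsSymmBody K ∧
      b * Real.log (coverNum (polarSet (cube n 1)) (a⁻¹ • polarSet K))
        < Real.log (coverNum K (cube n 1)) := by
  classical
  set A : ℕ := ⌈24 * a⌉₊ with hAdef
  set B : ℕ := ⌈b⌉₊ with hBdef
  have hA : 24 * a ≤ A := Nat.le_ceil _
  have hB : b ≤ B := Nat.le_ceil _
  have hApos : (0 : ℝ) < A := by linarith
  have hBpos : (0 : ℝ) < B := by linarith
  obtain ⟨X, Y, S, _, _, _, f, h, M, hY, hdual, hprim, hcard⟩ :=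
    core A B (by exact_mod_cast hApos) (by exact_mod_cast hBpos)
  set n := Fintype.card Y with hn
  let e : Y ≃ Fin n := Fintype.equivFin Y
  let F : X → EuclideanSpace ℝ (Fin n) := fun x => WithLp.toLp 2 fun i => 2 / A * f x (e.symm i)
  let V : Set (EuclideanSpace ℝ (Fin n)) := Set.range F ∪ -Set.range F ∪ {0}
  have hVfin : V.Finite :=
    ((Set.finite_range F).union (Set.finite_range F).neg).union (Set.finite_singleton _)
  have hVneg : -V = V := by
    ext v
    simp only [V, Set.mem_neg, Set.mem_union, neg_neg, Set.mem_singleton_iff, neg_eq_zero]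
    tauto
  have hapos : 0 < a := by linarith
  have hε : (0 : ℝ) < 1 / (4 * a) := by positivity
  have hc := isSymmBody_cube (n := n) hε
  have hc1 := isSymmBody_cube (n := n) one_pos
  let K : Set (EuclideanSpace ℝ (Fin n)) := convexHull ℝ V + cube n (1 / (4 * a))
  have h0V : (0 : EuclideanSpace ℝ (Fin n)) ∈ convexHull ℝ V :=
    subset_convexHull ℝ V (Or.inr rfl)
  have hK : IsSymmBody K := by
    refine ⟨(hVfin.isCompact_convexHull ℝ).add hc.1, (convex_convexHull ℝ V).add hc.2.1, ?_, ?_⟩
    · refine ⟨0, interior_mono ?_ hc.zero_mem_interior⟩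
      intro u hu
      exact ⟨0, h0V, u, hu, by simp⟩
    · simp only [K]
      rw [neg_add, ← convexHull_neg, hVneg, ← hc.2.2.2]
  refine ⟨n, Fintype.card_pos, K, hK, ?_⟩
  have hFK : ∀ x, F x ∈ K := fun x =>
    ⟨F x, subset_convexHull ℝ V (Or.inl (Or.inl ⟨x, rfl⟩)), 0,
      interior_subset hc.zero_mem_interior, by simp⟩
  have hlow : Fintype.card X ≤ coverNum K (cube n 1) * M := by
    refine card_le_coverNum_mul hK.1 hc1.zero_mem_interior F hFK
      (fun x x' => ∀ y, |f x y - f x' y| ≤ A) M ?_ (by convert hprim)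
    intro x x' u hu u' hu' huu y
    have h1 := congrArg (fun v : EuclideanSpace ℝ (Fin n) => v (e y)) huu
    simp only [F, PiLp.sub_apply, Equiv.symm_apply_apply] at h1
    have h2 := abs_le.mp (hu (e y))
    have h3 := abs_le.mp (hu' (e y))
    have h4 : f x y - f x' y = (u (e y) - u' (e y)) * (A / 2) := by
      rw [← h1]
      field_simp
    rw [h4, abs_le]
    constructor <;> nlinarith
  have hup : coverNum (polarSet (cube n 1)) (a⁻¹ • polarSet K) ≤ Fintype.card S := by
    apply coverNum_le_card (fun s v => ∀ x, |∑ y, v (e y) * f x y - h s x| ≤ 3)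
    · intro v hv
      apply hdual (fun y => v (e y))
      rw [Equiv.sum_comp e fun i => |v i|]
      exact sum_abs_le_of_mem_polar_cube hv
    · intro s v hv v' hv' hs hs'
      have hv1 := sum_abs_le_of_mem_polar_cube hv
      have hv1' := sum_abs_le_of_mem_polar_cube hv'
      rw [Set.mem_smul_set_iff_inv_smul_mem₀ (inv_ne_zero hapos.ne'), inv_inv]
      rintro _ ⟨k, hk, u, hu, rfl⟩
      have hFx : ∀ x, |inner ℝ (F x) (v - v')| ≤ 1 / (2 * a) := by
        intro x
        have h1 : inner ℝ (F x) (v - v')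
            = 2 / A * ((∑ y, v (e y) * f x y - h s x) - (∑ y, v' (e y) * f x y - h s x)) := by
          rw [inner_eq_sum, ← Equiv.sum_comp e]
          simp only [F, PiLp.sub_apply, Equiv.symm_apply_apply]
          rw [sub_sub_sub_cancel_right, ← sum_sub_distrib, mul_sum]
          apply sum_congr rfl
          intro y _
          ring
        rw [h1, abs_mul, abs_of_pos (by positivity : (0 : ℝ) < 2 / A)]
        have h2 : |(∑ y, v (e y) * f x y - h s x) - (∑ y, v' (e y) * f x y - h s x)| ≤ 6 :=
          (abs_sub _ _).trans (by linarith [hs x, hs' x])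
        calc 2 / (A : ℝ) * _ ≤ 2 / A * 6 := mul_le_mul_of_nonneg_left h2 (by positivity)
          _ ≤ 1 / (2 * a) := by
              rw [div_mul_eq_mul_div, div_le_div_iff₀ hApos (by positivity)]
              linarith
      have hk1 : inner ℝ k (v - v') ≤ 1 / (2 * a) := by
        have hsub : convexHull ℝ V
            ⊆ {k : EuclideanSpace ℝ (Fin n) | inner ℝ k (v - v') ≤ 1 / (2 * a)} := by
          apply convexHull_min
          · rintro k ((⟨x, rfl⟩ | hk) | hk)
            · exact (abs_le.mp (hFx x)).2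
            · obtain ⟨x, hx⟩ := Set.mem_neg.mp hk
              have hkx : k = -F x := by rw [hx, neg_neg]
              have := (abs_le.mp (hFx x)).1
              simp only [Set.mem_ofPred_eq, hkx, inner_neg_left]
              linarith
            · rw [Set.mem_singleton_iff] at hk
              simp only [Set.mem_ofPred_eq, hk, inner_zero_left]
              positivity
          · apply convex_halfSpace_le
            exact ⟨fun x y => inner_add_left _ _ _, fun c x => by simp [inner_smul_left]⟩
        exact hsub hk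
      have hu1 : inner ℝ u (v - v') ≤ 1 / (2 * a) := by
        rw [inner_eq_sum]
        calc ∑ i, (v - v') i * u i ≤ ∑ i, (|v i| + |v' i|) * (1 / (4 * a)) := by
              apply sum_le_sum
              intro i _
              calc (v - v') i * u i ≤ |(v - v') i * u i| := le_abs_self _
                _ = |v i - v' i| * |u i| := by rw [abs_mul, PiLp.sub_apply]
                _ ≤ (|v i| + |v' i|) * (1 / (4 * a)) :=
                    mul_le_mul (abs_sub _ _) (hu i) (abs_nonneg _) (by positivity)
          _ = (∑ i, |v i| + ∑ i, |v' i|) * (1 / (4 * a)) := by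
              rw [← sum_mul, sum_add_distrib]
          _ ≤ 2 * (1 / (4 * a)) := mul_le_mul_of_nonneg_right (by linarith) hε.le
          _ = 1 / (2 * a) := by
              field_simp
              norm_num
      rw [inner_smul_right, inner_add_left]
      calc a * (inner ℝ k (v - v') + inner ℝ u (v - v')) ≤ a * (1 / (2 * a) + 1 / (2 * a)) :=
            mul_le_mul_of_nonneg_left (add_le_add hk1 hu1) hapos.le
        _ = 1 := by
            field_simp
            norm_num
  have hS : 0 < Fintype.card S := by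
    obtain ⟨s, -⟩ := hdual (fun _ => 0) (by simp)
    exact Fintype.card_pos_iff.mpr ⟨s⟩
  have hlt : Fintype.card S ^ B < coverNum K (cube n 1) :=
    lt_of_mul_lt_mul_right (hcard.trans_le hlow) (Nat.zero_le _)
  have hS' : (1 : ℝ) ≤ Fintype.card S := by exact_mod_cast hS
  have hlog0 : 0 ≤ Real.log (Fintype.card S) := Real.log_nonneg hS'
  have hlog1 : Real.log (coverNum (polarSet (cube n 1)) (a⁻¹ • polarSet K))
      ≤ Real.log (Fintype.card S) := by
    rcases Nat.eq_zero_or_pos (coverNum (polarSet (cube n 1)) (a⁻¹ • polarSet K)) with h0 | h0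
    · rw [h0]
      simpa using hlog0
    · apply Real.log_le_log (by exact_mod_cast h0)
      exact_mod_cast hup
  calc b * Real.log (coverNum (polarSet (cube n 1)) (a⁻¹ • polarSet K))
      ≤ b * Real.log (Fintype.card S) := mul_le_mul_of_nonneg_left hlog1 (by linarith)
    _ ≤ B * Real.log (Fintype.card S) := mul_le_mul_of_nonneg_right hB hlog0
    _ = Real.log ((Fintype.card S : ℝ) ^ B) := by rw [Real.log_pow]
    _ < Real.log (coverNum K (cube n 1)) := by
        apply Real.log_lt_log (by positivity)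
        exact_mod_cast hlt

end Vale.Agent.P126
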