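import Vale.Agent.P126.Geometry

/-!
Polars of symmetric bodies, the bipolar theorem, and failure of the left-hand inequality.
-/

namespace Vale.Agent.P126

open Finset
open scoped Pointwise

variable {n : ℕ}

lemma IsSymmBody.polar {K : Set (EuclideanSpace ℝ (Fin n))} (hK : IsSymmBody K) :
    IsSymmBody (polarSet K) := by
  refine ⟨?_, ?_, ?_, ?_⟩
  · apply Metric.isCompact_of_isClosed_isBounded
    · have : polarSet K = ⋂ x ∈ K, {y : EuclideanSpace ℝ (Fin n) | inner ℝ x y ≤ 1} := by
        ext v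
        simp [polarSet]
      rw [this]
      apply isClosed_biInter
      intro x _
      apply isClosed_le _ continuous_const
      fun_prop
    · obtain ⟨r, hr, hball⟩ := Metric.mem_nhds_iff.mp
        (mem_interior_iff_mem_nhds.mp hK.zero_mem_interior)
      rw [isBounded_iff_forall_norm_le]
      refine ⟨2 / r, fun y hy => ?_⟩
      rcases eq_or_ne y 0 with rfl | hy0
      · simp only [norm_zero]
        positivity
      · have hn : 0 < ‖y‖ := norm_pos_iff.mpr hy0
        have hx : (r / 2 / ‖y‖) • y ∈ K := by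
          apply hball
          rw [mem_ball_zero_iff, norm_smul, Real.norm_of_nonneg (by positivity)]
          field_simp
          linarith
        have h := hy _ hx
        rw [inner_smul_left, real_inner_self_eq_norm_sq] at h
        simp only [conj_trivial] at h
        have h2 : r / 2 / ‖y‖ * ‖y‖ ^ 2 = r / 2 * ‖y‖ := by
          field_simp
        rw [h2] at h
        rw [le_div_iff₀ hr]
        linarith
  · intro v hv w hw s t hs ht hst x hx
    rw [inner_add_right, inner_smul_right, inner_smul_right]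
    have h1 := hv x hx
    have h2 := hw x hx
    nlinarith
  · obtain ⟨R, hR⟩ := isBounded_iff_forall_norm_le.mp hK.1.isBounded
    have hR0 : 0 ≤ R := (norm_nonneg _).trans (hR 0 (interior_subset hK.zero_mem_interior))
    refine ⟨0, mem_interior_iff_mem_nhds.mpr (Metric.mem_nhds_iff.mpr
      ⟨1 / (R + 1), by positivity, fun y hy x hx => ?_⟩)⟩
    rw [mem_ball_zero_iff, lt_div_iff₀ (by positivity)] at hy
    calc inner ℝ x y ≤ ‖x‖ * ‖y‖ := real_inner_le_norm x y
      _ ≤ R * ‖y‖ := mul_le_mul_of_nonneg_right (hR x hx) (norm_nonneg _)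
      _ ≤ 1 := by nlinarith [norm_nonneg y]
  · ext y
    simp only [polarSet, Set.mem_neg, Set.mem_ofPred_eq, inner_neg_right]
    constructor
    · intro h x hx
      have := h (-x) (hK.neg_mem hx)
      rwa [inner_neg_left] at this
    · intro h x hx
      have := h (-x) (hK.neg_mem hx)
      rwa [inner_neg_left, neg_neg] at this

lemma IsSymmBody.smul {K : Set (EuclideanSpace ℝ (Fin n))} (hK : IsSymmBody K) {c : ℝ}
    (hc : c ≠ 0) : IsSymmBody (c • K) := by
  refine ⟨hK.1.smul c, hK.2.1.smul c, ?_, ?_⟩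
  · rw [interior_smul₀ hc]
    exact hK.2.2.1.smul_set
  · rw [← Set.smul_set_neg, ← hK.2.2.2]

lemma IsSymmBody.bipolar {K : Set (EuclideanSpace ℝ (Fin n))} (hK : IsSymmBody K) :
    polarSet (polarSet K) = K := by
  ext x
  constructor
  · intro hx
    by_contra hxK
    obtain ⟨f, u, hf, hu⟩ := geometric_hahn_banach_closed_point hK.2.1 hK.1.isClosed hxK
    have hu0 : 0 < u := by simpa using hf 0 (interior_subset hK.zero_mem_interior)
    let w := (InnerProductSpace.toDual ℝ (EuclideanSpace ℝ (Fin n))).symm f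
    have hw : ∀ v, inner ℝ w v = f v := fun v => InnerProductSpace.toDual_symm_apply
    have h1 : u⁻¹ • w ∈ polarSet K := by
      intro k hk
      rw [inner_smul_right, real_inner_comm, hw, inv_mul_le_iff₀ hu0, mul_one]
      exact (hf k hk).le
    have h2 := hx _ h1
    rw [inner_smul_left, hw] at h2
    simp only [conj_trivial] at h2
    rw [inv_mul_le_iff₀ hu0, mul_one] at h2
    linarith
  · intro hx y hy
    rw [real_inner_comm]
    exact hy x hx

lemma polarSet_smul (K : Set (EuclideanSpace ℝ (Fin n))) {c : ℝ} (hc : 0 < c) :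
    polarSet (c⁻¹ • K) = c • polarSet K := by
  ext y
  rw [Set.mem_smul_set_iff_inv_smul_mem₀ hc.ne']
  constructor
  · intro h x hx
    have := h (c⁻¹ • x) (Set.smul_mem_smul_set hx)
    rwa [inner_smul_left, conj_trivial, ← inner_smul_right] at this
  · rintro h _ ⟨x, hx, rfl⟩
    have := h x hx
    rwa [inner_smul_left, conj_trivial, ← inner_smul_right]

lemma cover_smul {A B : Set (EuclideanSpace ℝ (Fin n))} {c : ℝ} (hc : c ≠ 0) {m : ℕ}
    (h : ∃ s : Finset (EuclideanSpace ℝ (Fin n)), s.card = m ∧ A ⊆ ⋃ x ∈ s, x +ᵥ B) :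
    ∃ s : Finset (EuclideanSpace ℝ (Fin n)), s.card = m ∧ c • A ⊆ ⋃ x ∈ s, x +ᵥ c • B := by
  classical
  obtain ⟨s, hs, hcov⟩ := h
  refine ⟨s.image fun x => c • x, ?_, ?_⟩
  · rw [card_image_of_injective _ (smul_right_injective _ hc), hs]
  · rintro _ ⟨v, hv, rfl⟩
    have := hcov hv
    simp only [Set.mem_iUnion] at this ⊢
    obtain ⟨x, hx, hvx⟩ := this
    obtain ⟨u, hu, rfl⟩ := Set.mem_vadd_set.mp hvx
    exact ⟨c • x, mem_image_of_mem _ hx, Set.mem_vadd_set.mpr
      ⟨c • u, Set.smul_mem_smul_set hu, by simp⟩⟩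

lemma coverNum_smul (A B : Set (EuclideanSpace ℝ (Fin n))) {c : ℝ} (hc : c ≠ 0) :
    coverNum (c • A) (c • B) = coverNum A B := by
  unfold coverNum
  congr 1
  ext m
  constructor
  · intro h
    have := cover_smul (inv_ne_zero hc) h
    rwa [inv_smul_smul₀ hc, inv_smul_smul₀ hc] at this
  · exact cover_smul hc

/-- The left-hand inequality fails, with `K` the polar of the unit cube. -/
theorem left_fails (a b : ℝ) (ha : 1 ≤ a) (hb : 1 ≤ b) :
    ∃ n : ℕ, 1 ≤ n ∧ ∃ L : Set (EuclideanSpace ℝ (Fin n)), IsSymmBody L ∧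
      Real.log (coverNum (polarSet (cube n 1)) L)
        < (1 / b) * Real.log (coverNum (polarSet L) (a • polarSet (polarSet (cube n 1)))) := by
  obtain ⟨n, hn, K, hK, hlt⟩ := right_fails a b ha hb
  have ha0 : 0 < a := by linarith
  have hb0 : 0 < b := by linarith
  refine ⟨n, hn, a⁻¹ • polarSet K, hK.polar.smul (inv_ne_zero ha0.ne'), ?_⟩
  rw [polarSet_smul _ ha0, hK.bipolar, (isSymmBody_cube one_pos).bipolar,
    coverNum_smul _ _ ha0.ne', one_div, lt_inv_mul_iff₀ hb0]
  exact hlt

lemma polarSet_cube (n : ℕ) :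
    polarSet (cube n 1) = {v : EuclideanSpace ℝ (Fin n) | ∑ i, |v i| ≤ 1} := by
  ext v
  constructor
  · exact sum_abs_le_of_mem_polar_cube
  · intro hv u hu
    rw [inner_eq_sum]
    refine le_trans (sum_le_sum fun i _ => ?_) hv
    calc v i * u i ≤ |v i * u i| := le_abs_self _
      _ = |v i| * |u i| := abs_mul _ _
      _ ≤ |v i| * 1 := mul_le_mul_of_nonneg_left (hu i) (abs_nonneg _)
      _ = |v i| := mul_one _

end Vale.Agent.P126
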