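import Vale.Agent.P126.Box

/-!
The choice of the parameters, the separation lemma and the extension lemma.
-/

namespace Vale.Agent.P126

open Finset

/-- Inverse densities `σ k`. -/
def sg : ℕ → ℕ
  | 0 => 2
  | k + 1 => 4 * sg k ^ 2

lemma sg_pos (k : ℕ) : 0 < sg k := by
  induction k with
  | zero => simp [sg]
  | succ k ih => simp only [sg]; positivity

/-- Number of initial segments of length `k`. -/
def Rr (a T : ℕ) : ℕ → ℕ
  | 0 => 1
  | k + 1 => Rr a T k * (2 * a * (Rr a T k * (2 * sg k * (T * Rr a T k ^ 2))))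

/-- Alphabet size at level `k`. -/
def pp (a T k : ℕ) : ℕ := T * Rr a T k ^ 2

/-- Number of coordinates at level `k`. -/
def LL (a T k : ℕ) : ℕ := 2 * a * (Rr a T k * (2 * sg k * pp a T k))

lemma Rr_pos {a T : ℕ} (ha : 0 < a) (hT : 0 < T) (k : ℕ) : 0 < Rr a T k := by
  induction k with
  | zero => simp [Rr]
  | succ k ih =>
    have := sg_pos k
    simp only [Rr]
    positivity

lemma pp_pos {a T : ℕ} (ha : 0 < a) (hT : 0 < T) (k : ℕ) : 0 < pp a T k := by
  have := Rr_pos ha hT k
  unfold pp
  positivity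

lemma LL_pos {a T : ℕ} (ha : 0 < a) (hT : 0 < T) (k : ℕ) : 0 < LL a T k := by
  have := Rr_pos ha hT k
  have := pp_pos ha hT k
  have := sg_pos k
  unfold LL
  positivity

lemma prod_LL (a T k : ℕ) : ∏ j ∈ range k, LL a T j = Rr a T k := by
  induction k with
  | zero => simp [Rr]
  | succ k ih => rw [prod_range_succ, ih]; rfl

/-- `L` as a function on levels. -/
abbrev Lf (a T : ℕ) : Fin a → ℕ := fun j => LL a T j.val

/-- `p` as a function on levels. -/
abbrev pf (a T : ℕ) : Fin a → ℕ := fun j => pp a T j.val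

lemma card_Pre_eq {a T : ℕ} (hL : ∀ j, 0 < Lf a T j) (k : ℕ) (hk : k ≤ a) :
    (Pre hL k).card = Rr a T k := by
  rw [card_Pre, ← prod_LL]
  rw [Fin.prod_univ_eq_prod_range (fun j => if j < k then LL a T j else 1) a]
  rw [← Finset.prod_filter]
  congr 1
  ext j
  simp only [mem_filter, mem_range]
  omega

/-- The sets of ignored coordinates. -/
def Ign (a T : ℕ) : Type :=
  {I : ∀ j : Fin a, Finset (Fin (Lf a T j)) // ∀ j, 2 * a * (I j).card ≤ Lf a T j}

noncomputable instance (a T : ℕ) : Fintype (Ign a T) := by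
  unfold Ign
  classical
  infer_instance

instance (a T : ℕ) : Nonempty (Ign a T) := ⟨⟨fun _ => ∅, by simp⟩⟩

/-- The tuple `c` avoids `I` on the levels below `k`. -/
def ok {a T : ℕ} (k : ℕ) (I : Ign a T) (c : Tup (Lf a T)) : Prop :=
  ∀ j : Fin a, j.val < k → c j ∉ I.1 j

lemma exists_ok {a T : ℕ} (ha : 0 < a) (hT : 0 < T) (I : Ign a T) :
    ∃ c : Tup (Lf a T), ∀ k, ok k I c := by
  have h : ∀ j : Fin a, ∃ t : Fin (Lf a T j), t ∉ I.1 j := by
    intro j
    by_contra hcon
    push Not at hcon
    have h1 : I.1 j = univ := eq_univ_of_forall hcon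
    have h2 := I.2 j
    rw [h1, card_univ, Fintype.card_fin] at h2
    have h3 : 0 < Lf a T j := LL_pos ha hT _
    nlinarith
  choose c hc using h
  exact ⟨c, fun k j _ => hc j⟩

/-- Separation lemma: a set of density at least one half meets every allowed subcube, for a
suitable choice of ignored coordinates. -/
lemma separation {a T : ℕ} (ha : 0 < a) (hT : 0 < T) (D : Finset (Om (Lf a T) (pf a T)))
    (hD : Fintype.card (Om (Lf a T) (pf a T)) ≤ 2 * D.card) :
    ∃ I : Ign a T, ∀ k ≤ a, ∀ c, ok k I c → (D ∩ W (Lf a T) (pf a T) k c).Nonempty := by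
  classical
  have hL : ∀ j, 0 < Lf a T j := fun j => LL_pos ha hT _
  have hp : ∀ j, 0 < pf a T j := fun j => pp_pos ha hT _
  let Good : ℕ → Tup (Lf a T) → Prop := fun k c =>
    ((W (Lf a T) (pf a T) k c).card : ℝ) ≤ sg k * ((D ∩ W (Lf a T) (pf a T) k c).card : ℝ)
  let I : ∀ j : Fin a, Finset (Fin (Lf a T j)) := fun κ =>
    ((Pre hL κ.val).filter fun c => Good κ.val c).biUnion fun c =>
      univ.filter fun t => ¬ Good (κ.val + 1) (Function.update c κ t)
  have hI : ∀ j, 2 * a * (I j).card ≤ Lf a T j := by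
    intro κ
    have h1 : (I κ).card ≤ Rr a T κ.val * (2 * sg κ.val * pp a T κ.val) := by
      calc (I κ).card ≤ ∑ c ∈ (Pre hL κ.val).filter fun c => Good κ.val c,
            (univ.filter fun t => ¬ Good (κ.val + 1) (Function.update c κ t)).card :=
            card_biUnion_le
        _ ≤ ∑ c ∈ (Pre hL κ.val).filter fun c => Good κ.val c,
            2 * sg κ.val * pp a T κ.val := by
            apply sum_le_sum
            intro c hc
            exact few_bad hp κ c D (sg κ.val) (sg_pos _) (mem_filter.mp hc).2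
        _ ≤ ∑ c ∈ Pre hL κ.val, 2 * sg κ.val * pp a T κ.val :=
            sum_le_sum_of_subset (filter_subset _ _)
        _ = _ := by rw [sum_const, card_Pre_eq hL _ κ.isLt.le, smul_eq_mul]
    exact Nat.mul_le_mul_left _ h1
  refine ⟨⟨I, hI⟩, ?_⟩
  have hgood : ∀ k ≤ a, ∀ c, ok k (⟨I, hI⟩ : Ign a T) c → Good k c := by
    intro k
    induction k with
    | zero =>
      intro _ c _
      simp only [Good, W_zero, inter_univ, card_univ, sg]
      exact_mod_cast hD
    | succ k ih =>
      intro hk c hc
      have hk' : k < a := hk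
      have h0 : Good k c := ih hk'.le c fun j hj => hc j (by omega)
      obtain ⟨c0, hc0, hcc⟩ := exists_Pre hL k c
      let κ : Fin a := ⟨k, hk'⟩
      have h1 : Good κ.val c0 := by
        simp only [Good, κ] at h0 ⊢
        rw [W_congr hcc]
        exact h0
      have h2 : c κ ∉ I κ := hc κ (by simp [κ])
      have h3 : Good (κ.val + 1) (Function.update c0 κ (c κ)) := by
        by_contra h
        apply h2
        simp only [I, mem_biUnion, mem_filter, mem_univ, true_and]
        exact ⟨c0, ⟨hc0, h1⟩, h⟩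
      have h4 : ∀ j : Fin a, j.val < k + 1 → Function.update c0 κ (c κ) j = c j := by
        intro j hj
        by_cases hjκ : j = κ
        · subst hjκ
          simp
        · rw [Function.update_of_ne hjκ]
          apply hcc
          have : j.val ≠ k := fun h => hjκ (Fin.ext h)
          omega
      simp only [Good, κ] at h3 ⊢
      rw [W_congr h4] at h3
      exact h3
  intro k hk c hc
  have h := hgood k hk c hc
  have hpos : (0 : ℝ) < (W (Lf a T) (pf a T) k c).card := by
    exact_mod_cast (W_nonempty hp k c).card_pos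
  rw [← card_pos]
  by_contra hcon
  have : (D ∩ W (Lf a T) (pf a T) k c).card = 0 := by omega
  simp only [Good, this] at h
  simp only [Nat.cast_zero, mul_zero] at h
  linarith

/-- The subcubes of level `k + 1` are small. -/
lemma card_W_small {a T : ℕ} (ha : 0 < a) (hT : 0 < T) (κ : Fin a) (c : Tup (Lf a T)) :
    pp a T κ.val * (W (Lf a T) (pf a T) (κ.val + 1) c).card
      ≤ Fintype.card (Om (Lf a T) (pf a T)) := by
  have hp : ∀ j, 0 < pf a T j := fun j => pp_pos ha hT _
  have h := card_W_succ hp κ c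
  have hp' : (0 : ℝ) < pf a T κ := by exact_mod_cast hp κ
  rw [eq_div_iff hp'.ne'] at h
  have h2 : (W (Lf a T) (pf a T) (κ.val + 1) c).card * pf a T κ
      = (W (Lf a T) (pf a T) κ.val c).card := by exact_mod_cast h
  calc _ = (W (Lf a T) (pf a T) κ.val c).card := by rw [← h2, mul_comm]
    _ ≤ _ := card_le_univ _

/-- Extension lemma: one coordinate at level `κ` is allowed for most of the weight. -/
lemma extension {a T : ℕ} (ha : 0 < a) (hT : 0 < T) {Y : Type} [Fintype Y] (π : Y → Ign a T)
    (w : Y → ℝ) (hw : ∀ y, 0 ≤ w y) (hs : ∑ y, w y ≤ 1) (κ : Fin a) :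
    ∃ (B : Finset Y) (P : Finset (Tup (Lf a T))), ∑ y ∈ B, w y ≤ 1 / (2 * a) ∧
      P.card ≤ Rr a T κ.val ∧
      ∀ y ∉ B, ∀ c, ok κ.val (π y) c → ∃ c' ∈ P, ok (κ.val + 1) (π y) c' ∧
        W (Lf a T) (pf a T) (κ.val + 1) c' ⊆ W (Lf a T) (pf a T) κ.val c := by
  classical
  have hL : ∀ j, 0 < Lf a T j := fun j => LL_pos ha hT _
  have ha' : (0 : ℝ) < a := by exact_mod_cast ha
  have hex : ∃ t : Fin (Lf a T κ),
      ∑ y ∈ univ.filter (fun y => t ∈ (π y).1 κ), w y ≤ 1 / (2 * a) := by
    have : Nonempty (Fin (Lf a T κ)) := ⟨⟨0, hL κ⟩⟩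
    obtain ⟨t, -, ht⟩ := Finset.exists_le_of_sum_le (s := (univ : Finset (Fin (Lf a T κ))))
      (f := fun t => ∑ y ∈ univ.filter (fun y => t ∈ (π y).1 κ), w y)
      (g := fun _ => 1 / (2 * (a : ℝ))) univ_nonempty (by
        calc ∑ t : Fin (Lf a T κ), ∑ y ∈ univ.filter (fun y => t ∈ (π y).1 κ), w y
            = ∑ y, (((π y).1 κ).card : ℝ) * w y := by
              simp only [sum_filter]
              rw [sum_comm]
              apply sum_congr rfl
              intro y _
              rw [← sum_filter]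
              simp
          _ ≤ ∑ y, ((Lf a T κ : ℝ) / (2 * a)) * w y := by
              apply sum_le_sum
              intro y _
              apply mul_le_mul_of_nonneg_right _ (hw y)
              rw [le_div_iff₀ (by positivity)]
              have := (π y).2 κ
              have h2 : (2 * a * ((π y).1 κ).card : ℝ) ≤ Lf a T κ := by exact_mod_cast this
              linarith
          _ = ((Lf a T κ : ℝ) / (2 * a)) * ∑ y, w y := by rw [mul_sum]
          _ ≤ ((Lf a T κ : ℝ) / (2 * a)) * 1 :=
              mul_le_mul_of_nonneg_left hs (by positivity)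
          _ = ∑ t : Fin (Lf a T κ), 1 / (2 * (a : ℝ)) := by
              simp
              ring)
    exact ⟨t, ht⟩
  obtain ⟨t, ht⟩ := hex
  refine ⟨univ.filter (fun y => t ∈ (π y).1 κ),
    (Pre hL κ.val).image fun c => Function.update c κ t, ht, ?_, ?_⟩
  · exact card_image_le.trans (card_Pre_eq hL _ κ.isLt.le).le
  · intro y hy c hc
    simp only [mem_filter, mem_univ, true_and] at hy
    obtain ⟨c0, hc0, hcc⟩ := exists_Pre hL κ.val c
    refine ⟨Function.update c0 κ t, mem_image_of_mem _ hc0, ?_, ?_⟩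
    · intro j hj
      by_cases hjκ : j = κ
      · subst hjκ
        simpa using hy
      · rw [Function.update_of_ne hjκ]
        have : j.val ≠ κ.val := fun h => hjκ (Fin.ext h)
        have hj' : j.val < κ.val := by omega
        rw [hcc j hj']
        exact hc j hj'
    · refine (W_anti (Nat.le_succ _) _).trans ?_
      rw [W_update, W_congr hcc]

end Vale.Agent.P126
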